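import Mathlib

/-! Two families with the same Gram matrix are related by a linear isometry. -/

namespace Vale.Agent.P130

open scoped InnerProductSpace

theorem transfer {H K ι : Type*} [NormedAddCommGroup H] [InnerProductSpace ℂ H] [CompleteSpace H]
    [NormedAddCommGroup K] [InnerProductSpace ℂ K] (v : ι → H) (w : ι → K)
    (hg : ∀ i j, ⟪v i, v j⟫_ℂ = ⟪w i, w j⟫_ℂ)
    (hd : Dense (Submodule.span ℂ (Set.range w) : Set K)) :
    ∃ V : K →ₗᵢ[ℂ] H, ∀ i, V (w i) = v i := by
  let f := Finsupp.linearCombination ℂ v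
  let g := Finsupp.linearCombination ℂ w
  have hfg : ∀ c, ‖f c‖ = ‖g c‖ := by
    intro c
    have h1 : ⟪f c, f c⟫_ℂ = ⟪g c, g c⟫_ℂ := by
      simp only [f, g, Finsupp.linearCombination_apply, Finsupp.sum, sum_inner, inner_sum,
        inner_smul_left, inner_smul_right, hg]
    rw [norm_eq_sqrt_re_inner (𝕜 := ℂ), norm_eq_sqrt_re_inner (𝕜 := ℂ), h1]
  have hdr : DenseRange g := by
    rw [DenseRange, ← LinearMap.coe_range, Finsupp.range_linearCombination]
    exact hd
  have hb : ∃ C : ℝ, ∀ c, ‖f c‖ ≤ C * ‖g c‖ := ⟨1, fun c => by rw [hfg, one_mul]⟩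
  let V := f.extendOfNorm g
  have hV : ∀ c, V (g c) = f c := LinearMap.extendOfNorm_eq hdr hb
  have hn : ∀ x, ‖V x‖ = ‖x‖ := fun x =>
    hdr.induction_on (p := fun x => ‖V x‖ = ‖x‖) x (isClosed_eq (by fun_prop) (by fun_prop))
      fun c => by rw [hV, hfg]
  refine ⟨⟨V.toLinearMap, hn⟩, fun i => ?_⟩
  have := hV (Finsupp.single i 1)
  simpa [f, g] using this

end Vale.Agent.P130
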